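import Mathlib

/-! Definitions for P189: graphings of the orbit equivalence relation of a group action,
their cost, and the cost of an action. -/

namespace Vale.Agent.Lib.P189

open MeasureTheory

/-- A graphing of the orbit equivalence relation of the action of `Γ` on `(X, μ)`: a
countable family, indexed by `ℕ`, of Borel partial injections `map i` with Borel domains
`dom i`, each of which preserves `μ` and sends every point of its domain into the `Γ`-orbit
of that point. (Empty domains are allowed, so finite families are included.) -/
structure Graphing (Γ : Type*) {X : Type*} [Group Γ] [MulAction Γ X] [MeasurableSpace X]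
    (μ : Measure X) where
  /-- the domains -/
  dom : ℕ → Set X
  /-- the maps -/
  map : ℕ → X → X
  measurableSet_dom : ∀ i, MeasurableSet (dom i)
  measurable_map : ∀ i, Measurable (map i)
  injOn : ∀ i, Set.InjOn (map i) (dom i)
  measure_image : ∀ i (s : Set X), MeasurableSet s → s ⊆ dom i → μ (map i '' s) = μ s
  mem_orbit : ∀ i, ∀ x ∈ dom i, map i x ∈ MulAction.orbit Γ x

variable {Γ : Type*} {X : Type*} [Group Γ] [MulAction Γ X] [MeasurableSpace X] {μ : Measure X}

/-- One step of the graphing: `a` and `b` are joined by one of the maps or its inverse. -/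
def Graphing.Adj (Φ : Graphing Γ μ) (a b : X) : Prop :=
  ∃ i, (a ∈ Φ.dom i ∧ Φ.map i a = b) ∨ (b ∈ Φ.dom i ∧ Φ.map i b = a)

/-- The graphing generates the orbit relation: for almost every `x`, every point of the orbit
of `x` is reached from `x` by a finite chain of the maps and their inverses. -/
def Graphing.Generating (Φ : Graphing Γ μ) : Prop :=
  ∀ᵐ x ∂μ, ∀ y ∈ MulAction.orbit Γ x, Relation.ReflTransGen Φ.Adj x y

/-- The cost of a graphing: the sum of the measures of its domains. -/
noncomputable def Graphing.cost (Φ : Graphing Γ μ) : ENNReal :=
  ∑' i, μ (Φ.dom i)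

/-- The cost of the action of `Γ` on `(X, μ)`: the infimum of the costs of its generating
graphings. -/
noncomputable def actionCost (Γ : Type*) {X : Type*} [Group Γ] [MulAction Γ X]
    [MeasurableSpace X] (μ : Measure X) : ENNReal :=
  ⨅ (Φ : Graphing Γ μ) (_ : Φ.Generating), Φ.cost

end Vale.Agent.Lib.P189
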