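import Vale.Agent.Lib.P189.Defs

/-! Lower bound for the cost of generating graphings of essentially free actions of finite
groups. -/

namespace Vale.Agent.Lib.P189

open MeasureTheory
open scoped ENNReal

variable {Γ : Type*} {X : Type*} [Group Γ] [MulAction Γ X] [MeasurableSpace X] {μ : Measure X}

/-- The out-degree of a point in a graphing (number of domains containing it). -/
noncomputable def Graphing.deg (Φ : Graphing Γ μ) (x : X) : ℝ≥0∞ :=
  ∑' i, (Φ.dom i).indicator 1 x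

theorem Graphing.measurable_deg (Φ : Graphing Γ μ) : Measurable Φ.deg :=
  Measurable.tsum (fun i => measurable_one.indicator (Φ.measurableSet_dom i))

theorem Graphing.lintegral_deg (Φ : Graphing Γ μ) : ∫⁻ x, Φ.deg x ∂μ = Φ.cost := by
  unfold Graphing.deg Graphing.cost
  rw [lintegral_tsum (fun i => (measurable_one.indicator (Φ.measurableSet_dom i)).aemeasurable)]
  congr 1
  funext i
  exact lintegral_indicator_one (Φ.measurableSet_dom i)

theorem Graphing.Adj.symm {Φ : Graphing Γ μ} {a b : X} (h : Φ.Adj a b) : Φ.Adj b a := by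
  obtain ⟨i, h | h⟩ := h
  · exact ⟨i, Or.inr h⟩
  · exact ⟨i, Or.inl h⟩

theorem Graphing.Adj.mem_orbit {Φ : Graphing Γ μ} {a b : X} (h : Φ.Adj a b) :
    b ∈ MulAction.orbit Γ a := by
  obtain ⟨i, ⟨ha, rfl⟩ | ⟨hb, rfl⟩⟩ := h
  · exact Φ.mem_orbit i a ha
  · exact MulAction.mem_orbit_symm.mp (Φ.mem_orbit i b hb)

/-- In a free orbit on which the graphing is connected, the total out-degree is at least
the number of points minus one. -/
theorem Graphing.card_sub_one_le_sum_deg [Fintype Γ] (Φ : Graphing Γ μ) (x : X)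
    (hfree : ∀ g : Γ, g ≠ 1 → g • x ≠ x)
    (hgen : ∀ y ∈ MulAction.orbit Γ x, Relation.ReflTransGen Φ.Adj x y) :
    (Fintype.card Γ : ℝ≥0∞) - 1 ≤ ∑ g : Γ, Φ.deg (g • x) := by
  classical
  have hinj : ∀ g h : Γ, g • x = h • x → g = h := by
    intro g h hgh
    by_contra hne
    apply hfree (h⁻¹ * g) (fun h1 => hne (by rw [inv_mul_eq_one] at h1; exact h1.symm))
    rw [mul_smul, hgh, inv_smul_smul]
  -- the graph on `Γ`
  let G : SimpleGraph Γ :=
    { Adj := fun g h => g ≠ h ∧ Φ.Adj (g • x) (h • x)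
      symm := ⟨fun g h hgh => ⟨hgh.1.symm, hgh.2.symm⟩⟩
      loopless := ⟨fun g hg => hg.1 rfl⟩ }
  have hreach : ∀ y, Relation.ReflTransGen Φ.Adj x y → ∃ g : Γ, g • x = y ∧ G.Reachable 1 g := by
    intro y hy
    induction hy with
    | refl => exact ⟨1, one_smul _ _, SimpleGraph.Reachable.refl _⟩
    | tail _ hbc ih =>
      obtain ⟨g, rfl, hg⟩ := ih
      obtain ⟨h, rfl⟩ := hbc.mem_orbit
      by_cases hEq : h * g = g
      · refine ⟨g, ?_, hg⟩
        show g • x = h • g • x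
        rw [← mul_smul, hEq]
      · refine ⟨h * g, mul_smul _ _ _, hg.trans (SimpleGraph.Adj.reachable ?_)⟩
        refine ⟨Ne.symm hEq, ?_⟩
        rw [mul_smul]
        exact hbc
  have hconn : G.Connected := by
    rw [SimpleGraph.connected_iff_exists_forall_reachable]
    refine ⟨1, fun g => ?_⟩
    obtain ⟨g', hg', hr⟩ := hreach (g • x) (hgen _ (MulAction.mem_orbit x g))
    rw [hinj g' g hg'] at hr
    exact hr
  have hcard := hconn.card_vert_le_card_edgeSet_add_one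
  -- a choice of a directed edge of the graphing for each edge of `G`
  have hchoice : ∀ e : G.edgeSet, ∃ p : Γ × ℕ, ∃ h : Γ,
      e.1 = s(p.1, h) ∧ p.1 • x ∈ Φ.dom p.2 ∧ Φ.map p.2 (p.1 • x) = h • x := by
    rintro ⟨e, he⟩
    induction e using Sym2.ind with
    | _ a b =>
      have hab : G.Adj a b := he
      obtain ⟨-, i, ⟨h1, h2⟩ | ⟨h1, h2⟩⟩ := hab
      · exact ⟨(a, i), b, rfl, h1, h2⟩
      · exact ⟨(b, i), a, Sym2.eq_swap, h1, h2⟩
  choose c hc using hchoice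
  have hcinj : Function.Injective c := by
    intro e e' hee
    obtain ⟨h, he, -, hmap⟩ := hc e
    obtain ⟨h', he', -, hmap'⟩ := hc e'
    rw [hee] at he hmap
    have hh : h = h' := hinj h h' (by rw [← hmap, ← hmap'])
    apply Subtype.ext
    rw [he, he', hh]
  have : Fintype G.edgeSet := Fintype.ofFinite _
  set F : Finset (Γ × ℕ) := Finset.univ.image c with hF
  have hFcard : F.card = Nat.card G.edgeSet := by
    rw [hF, Finset.card_image_of_injective _ hcinj, Finset.card_univ, Nat.card_eq_fintype_card]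
  have hFmem : ∀ p ∈ F, p.1 • x ∈ Φ.dom p.2 := by
    intro p hp
    rw [hF, Finset.mem_image] at hp
    obtain ⟨e, -, rfl⟩ := hp
    obtain ⟨h, -, hdom, -⟩ := hc e
    exact hdom
  -- the sum of the degrees as a sum over pairs
  have hsum : ∑ g : Γ, Φ.deg (g • x)
      = ∑' p : Γ × ℕ, (Φ.dom p.2).indicator (1 : X → ℝ≥0∞) (p.1 • x) := by
    rw [ENNReal.tsum_prod' (f := fun p : Γ × ℕ => (Φ.dom p.2).indicator (1 : X → ℝ≥0∞) (p.1 • x)),
      tsum_fintype]
    rfl
  rw [hsum]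
  have h1 : (F.card : ℝ≥0∞)
      ≤ ∑' p : Γ × ℕ, (Φ.dom p.2).indicator (1 : X → ℝ≥0∞) (p.1 • x) := by
    calc (F.card : ℝ≥0∞) = ∑ p ∈ F, (1 : ℝ≥0∞) := by simp
      _ = ∑ p ∈ F, (Φ.dom p.2).indicator (1 : X → ℝ≥0∞) (p.1 • x) := by
          refine Finset.sum_congr rfl (fun p hp => ?_)
          rw [Set.indicator_of_mem (hFmem p hp)]
          rfl
      _ ≤ ∑' p : Γ × ℕ, (Φ.dom p.2).indicator (1 : X → ℝ≥0∞) (p.1 • x) :=
          ENNReal.sum_le_tsum F
  refine le_trans ?_ h1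
  rw [tsub_le_iff_right, hFcard]
  have : Fintype.card Γ ≤ Nat.card G.edgeSet + 1 := by
    rw [← Nat.card_eq_fintype_card]; exact hcard
  exact_mod_cast this

/-- Lower bound: every generating graphing of an essentially free measure-preserving action
of a finite group of order `n` on a probability space has cost at least `1 - 1/n`. -/
theorem Graphing.cost_lower [Fintype Γ] [IsProbabilityMeasure μ] (Φ : Graphing Γ μ)
    (hmeas : ∀ g : Γ, Measurable (fun x : X => g • x))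
    (hinv : ∀ g : Γ, ∀ s : Set X, MeasurableSet s → μ ((fun x => g • x) ⁻¹' s) = μ s)
    (hfree : ∀ g : Γ, g ≠ 1 → μ {x | g • x = x} = 0)
    (hgen : Φ.Generating) : 1 - (Fintype.card Γ : ℝ≥0∞)⁻¹ ≤ Φ.cost := by
  have hmap : ∀ g : Γ, Measure.map (fun x : X => g • x) μ = μ := fun g =>
    Measure.ext (fun s hs => by rw [Measure.map_apply (hmeas g) hs, hinv g s hs])
  have key : ∀ f : X → ℝ≥0∞, Measurable f → ∀ g : Γ, ∫⁻ x, f (g • x) ∂μ = ∫⁻ x, f x ∂μ := by
    intro f hf g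
    have h := lintegral_map (μ := μ) hf (hmeas g)
    rw [hmap g] at h
    exact h.symm
  have h1 : ∀ g : Γ, ∫⁻ x, Φ.deg (g • x) ∂μ = Φ.cost := by
    intro g
    rw [key Φ.deg Φ.measurable_deg g, Φ.lintegral_deg]
  have h2 : ∫⁻ x, ∑ g : Γ, Φ.deg (g • x) ∂μ = (Fintype.card Γ : ℝ≥0∞) * Φ.cost := by
    rw [lintegral_finsetSum Finset.univ (f := fun g x => Φ.deg (g • x))
      (fun g _ => Φ.measurable_deg.comp (hmeas g))]
    simp [h1]
  have hf : ∀ᵐ x ∂μ, ∀ g : Γ, g ≠ 1 → g • x ≠ x := by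
    rw [ae_all_iff]
    intro g
    by_cases hg : g = 1
    · exact Filter.Eventually.of_forall (fun x h => absurd hg h)
    · have h0 := hfree g hg
      rw [ae_iff]
      have : {a : X | ¬(g ≠ 1 → g • a ≠ a)} = {x | g • x = x} := by
        ext a
        simp [hg]
      rw [this]
      exact h0
  have h3 : ∀ᵐ x ∂μ, (Fintype.card Γ : ℝ≥0∞) - 1 ≤ ∑ g : Γ, Φ.deg (g • x) := by
    filter_upwards [hf, hgen] with x hx1 hx2 using Φ.card_sub_one_le_sum_deg x hx1 hx2
  have h4 : (Fintype.card Γ : ℝ≥0∞) - 1 ≤ (Fintype.card Γ : ℝ≥0∞) * Φ.cost := by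
    rw [← h2]
    calc (Fintype.card Γ : ℝ≥0∞) - 1 = ∫⁻ _, ((Fintype.card Γ : ℝ≥0∞) - 1) ∂μ := by
          rw [lintegral_const, measure_univ, mul_one]
      _ ≤ ∫⁻ x, ∑ g : Γ, Φ.deg (g • x) ∂μ := lintegral_mono_ae h3
  have hn0 : (Fintype.card Γ : ℝ≥0∞) ≠ 0 := by
    have : 0 < Fintype.card Γ := Fintype.card_pos
    exact_mod_cast this.ne'
  have hntop : (Fintype.card Γ : ℝ≥0∞) ≠ ⊤ := ENNReal.natCast_ne_top _
  have h5 : 1 - (Fintype.card Γ : ℝ≥0∞)⁻¹
      = (Fintype.card Γ : ℝ≥0∞)⁻¹ * ((Fintype.card Γ : ℝ≥0∞) - 1) := by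
    rw [ENNReal.mul_sub (fun _ _ => ENNReal.inv_ne_top.mpr hn0), ENNReal.inv_mul_cancel hn0 hntop,
      mul_one]
  rw [h5]
  calc (Fintype.card Γ : ℝ≥0∞)⁻¹ * ((Fintype.card Γ : ℝ≥0∞) - 1)
      ≤ (Fintype.card Γ : ℝ≥0∞)⁻¹ * ((Fintype.card Γ : ℝ≥0∞) * Φ.cost) := by gcongr
    _ = Φ.cost := by
        rw [← mul_assoc, ENNReal.inv_mul_cancel hn0 hntop, one_mul]

end Vale.Agent.Lib.P189
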