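import Vale.Agent.Lib.P189.Lower

/-! Upper bound: a generating graphing of cost `1 - 1/n` for an essentially free action of a
finite group of order `n` on a standard probability space, and the resulting formula for
the cost. -/

namespace Vale.Agent.Lib.P189

open MeasureTheory
open scoped ENNReal

variable {Γ : Type*} {X : Type*} [Group Γ] [MulAction Γ X] [MeasurableSpace X] {μ : Measure X}

theorem rtg_symm {r : X → X → Prop} (hr : ∀ a b, r a b → r b a) {a b : X}
    (h : Relation.ReflTransGen r a b) : Relation.ReflTransGen r b a := by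
  induction h with
  | refl => exact Relation.ReflTransGen.refl
  | tail _ hbc ih => exact Relation.ReflTransGen.head (hr _ _ hbc) ih

section

open scoped Classical

variable (Γ X) [Fintype Γ] [StandardBorelSpace X]

/-- A fundamental domain: the points that minimize a fixed Borel embedding into `ℝ` on their
orbit. -/
def fundDom : Set X :=
  {x | ∀ g : Γ, embeddingReal X x ≤ embeddingReal X (g • x)}

variable {Γ X}

theorem measurableSet_fundDom (hmeas : ∀ g : Γ, Measurable (fun x : X => g • x)) :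
    MeasurableSet (fundDom Γ X) := by
  have h : fundDom Γ X = ⋂ g : Γ, {x | embeddingReal X x ≤ embeddingReal X (g • x)} := by
    ext x; simp [fundDom]
  rw [h]
  exact MeasurableSet.iInter (fun g => measurableSet_le
    (measurableEmbedding_embeddingReal X).measurable
    ((measurableEmbedding_embeddingReal X).measurable.comp (hmeas g)))

theorem exists_smul_mem_fundDom (x : X) : ∃ g : Γ, g • x ∈ fundDom Γ X := by
  obtain ⟨g, -, hg⟩ := Finset.exists_min_image (Finset.univ : Finset Γ)
    (fun g => embeddingReal X (g • x)) ⟨1, Finset.mem_univ _⟩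
  refine ⟨g, fun h => ?_⟩
  have := hg (h * g) (Finset.mem_univ _)
  rwa [mul_smul] at this

theorem eq_of_mem_fundDom {x : X} {g h : Γ} (hg : g • x ∈ fundDom Γ X)
    (hh : h • x ∈ fundDom Γ X) : g • x = h • x := by
  have h1 := hg (h * g⁻¹)
  have h2 := hh (g * h⁻¹)
  rw [← mul_smul, inv_mul_cancel_right] at h1 h2
  exact (measurableEmbedding_embeddingReal X).injective (le_antisymm h1 h2)

variable (Γ)

/-- An enumeration of the finite group `Γ` by the natural numbers below its order, extended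
by `1`. -/
noncomputable def enum (i : ℕ) : Γ :=
  if h : i < Fintype.card Γ then (Fintype.equivFin Γ).symm ⟨i, h⟩ else 1

variable {Γ}

theorem enum_index (g : Γ) : enum Γ (Fintype.equivFin Γ g : ℕ) = g := by
  unfold enum
  rw [dif_pos (Fintype.equivFin Γ g).2]
  simp

theorem enum_of_ge {i : ℕ} (h : Fintype.card Γ ≤ i) : enum Γ i = 1 := by
  unfold enum
  rw [dif_neg (not_lt.mpr h)]

/-- The graphing `(x ↦ g • x on the fundamental domain)`, `g ≠ 1`. -/
noncomputable def finGraphing (hmeas : ∀ g : Γ, Measurable (fun x : X => g • x))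
    (hinv : ∀ g : Γ, ∀ s : Set X, MeasurableSet s → μ ((fun x => g • x) ⁻¹' s) = μ s) :
    Graphing Γ μ where
  dom i := if enum Γ i = 1 then ∅ else fundDom Γ X
  map i x := enum Γ i • x
  measurableSet_dom i := by
    split_ifs
    · exact MeasurableSet.empty
    · exact measurableSet_fundDom hmeas
  measurable_map i := hmeas _
  injOn i := (MulAction.injective _).injOn
  measure_image i s hs _ := by
    have h : (fun x : X => enum Γ i • x) '' s = (fun x : X => (enum Γ i)⁻¹ • x) ⁻¹' s := by
      ext y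
      constructor
      · rintro ⟨x, hx, rfl⟩
        simpa using hx
      · intro hy
        exact ⟨(enum Γ i)⁻¹ • y, hy, by simp⟩
    rw [h, hinv _ s hs]
  mem_orbit i x _ := MulAction.mem_orbit x _

theorem finGraphing_step (hmeas : ∀ g : Γ, Measurable (fun x : X => g • x))
    (hinv : ∀ g : Γ, ∀ s : Set X, MeasurableSet s → μ ((fun x => g • x) ⁻¹' s) = μ s)
    {d : X} (hd : d ∈ fundDom Γ X) (g : Γ) :
    Relation.ReflTransGen (finGraphing (μ := μ) hmeas hinv).Adj d (g • d) := by
  by_cases hg : g = 1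
  · rw [hg, one_smul]
  · refine Relation.ReflTransGen.single ⟨(Fintype.equivFin Γ g : ℕ), Or.inl ⟨?_, ?_⟩⟩
    · show d ∈ (if enum Γ (Fintype.equivFin Γ g : ℕ) = 1 then ∅ else fundDom Γ X)
      rw [enum_index, if_neg hg]
      exact hd
    · show enum Γ (Fintype.equivFin Γ g : ℕ) • d = g • d
      rw [enum_index]

theorem finGraphing_generating (hmeas : ∀ g : Γ, Measurable (fun x : X => g • x))
    (hinv : ∀ g : Γ, ∀ s : Set X, MeasurableSet s → μ ((fun x => g • x) ⁻¹' s) = μ s) :
    (finGraphing (μ := μ) hmeas hinv).Generating := by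
  refine Filter.Eventually.of_forall (fun x y hy => ?_)
  obtain ⟨k, rfl⟩ := hy
  obtain ⟨g₀, hg₀⟩ := exists_smul_mem_fundDom (Γ := Γ) x
  have h1 := finGraphing_step (μ := μ) hmeas hinv hg₀ g₀⁻¹
  rw [inv_smul_smul] at h1
  have h2 := finGraphing_step (μ := μ) hmeas hinv hg₀ (k * g₀⁻¹)
  rw [← mul_smul, inv_mul_cancel_right] at h2
  exact (rtg_symm (fun a b h => h.symm) h1).trans h2

theorem finGraphing_cost (hmeas : ∀ g : Γ, Measurable (fun x : X => g • x))
    (hinv : ∀ g : Γ, ∀ s : Set X, MeasurableSet s → μ ((fun x => g • x) ⁻¹' s) = μ s) :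
    (finGraphing (μ := μ) hmeas hinv).cost
      = ((Fintype.card Γ - 1 : ℕ) : ℝ≥0∞) * μ (fundDom Γ X) := by
  unfold Graphing.cost
  have hdom : ∀ i, μ ((finGraphing (μ := μ) hmeas hinv).dom i)
      = if enum Γ i = 1 then 0 else μ (fundDom Γ X) := by
    intro i
    show μ (if enum Γ i = 1 then ∅ else fundDom Γ X) = _
    split_ifs <;> simp
  rw [tsum_eq_sum (s := Finset.range (Fintype.card Γ)) (fun i hi => by
    rw [hdom, if_pos (enum_of_ge (by simpa using hi))])]
  rw [Finset.sum_range]
  have h1 : ∀ j : Fin (Fintype.card Γ), μ ((finGraphing (μ := μ) hmeas hinv).dom j)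
      = (fun g : Γ => if g = 1 then 0 else μ (fundDom Γ X)) ((Fintype.equivFin Γ).symm j) := by
    intro j
    rw [hdom]
    have : enum Γ (j : ℕ) = (Fintype.equivFin Γ).symm j := by
      unfold enum
      rw [dif_pos j.2]
    rw [this]
  rw [Finset.sum_congr rfl (fun j _ => h1 j),
    Equiv.sum_comp (Fintype.equivFin Γ).symm (fun g : Γ => if g = 1 then 0 else μ (fundDom Γ X))]
  rw [← Finset.add_sum_erase Finset.univ _ (Finset.mem_univ (1 : Γ)), if_pos rfl, zero_add]
  rw [Finset.sum_congr rfl (fun g hg => if_neg (Finset.ne_of_mem_erase hg)), Finset.sum_const,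
    Finset.card_erase_of_mem (Finset.mem_univ _), Finset.card_univ, nsmul_eq_mul]

theorem card_mul_measure_fundDom_le [IsProbabilityMeasure μ]
    (hmeas : ∀ g : Γ, Measurable (fun x : X => g • x))
    (hinv : ∀ g : Γ, ∀ s : Set X, MeasurableSet s → μ ((fun x => g • x) ⁻¹' s) = μ s)
    (hfree : ∀ g : Γ, g ≠ 1 → μ {x | g • x = x} = 0) :
    (Fintype.card Γ : ℝ≥0∞) * μ (fundDom Γ X) ≤ 1 := by
  have hD := measurableSet_fundDom (Γ := Γ) (X := X) hmeas
  have hdisj : Set.Pairwise (↑(Finset.univ : Finset Γ))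
      (Function.onFun (AEDisjoint μ) fun g : Γ => (fun x : X => g • x) ⁻¹' fundDom Γ X) := by
    intro g _ h _ hgh
    show μ (((fun x : X => g • x) ⁻¹' fundDom Γ X) ∩ ((fun x : X => h • x) ⁻¹' fundDom Γ X)) = 0
    refine measure_mono_null ?_ (hfree (h⁻¹ * g) (fun h1 => hgh (by
      rw [inv_mul_eq_one] at h1; exact h1.symm)))
    rintro x ⟨hx1, hx2⟩
    show (h⁻¹ * g) • x = x
    rw [mul_smul, eq_of_mem_fundDom hx1 hx2, inv_smul_smul]
  have h1 := measure_biUnion_finset₀ hdisj (fun g _ => ((hmeas g) hD).nullMeasurableSet)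
  have h2 : ∑ g : Γ, μ ((fun x : X => g • x) ⁻¹' fundDom Γ X)
      = (Fintype.card Γ : ℝ≥0∞) * μ (fundDom Γ X) := by
    rw [Finset.sum_congr rfl (fun g _ => hinv g _ hD), Finset.sum_const, Finset.card_univ,
      nsmul_eq_mul]
  rw [← h2, ← h1]
  exact prob_le_one

end

/-- The cost of an essentially free measure-preserving action of a finite group of order `n`
on a standard probability space is `1 - 1/n`. -/
theorem actionCost_finite [Fintype Γ] [StandardBorelSpace X] [IsProbabilityMeasure μ]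
    (hmeas : ∀ g : Γ, Measurable (fun x : X => g • x))
    (hinv : ∀ g : Γ, ∀ s : Set X, MeasurableSet s → μ ((fun x => g • x) ⁻¹' s) = μ s)
    (hfree : ∀ g : Γ, g ≠ 1 → μ {x | g • x = x} = 0) :
    actionCost Γ μ = 1 - (Fintype.card Γ : ℝ≥0∞)⁻¹ := by
  apply le_antisymm
  · refine iInf₂_le_of_le (finGraphing hmeas hinv) (finGraphing_generating hmeas hinv) ?_
    rw [finGraphing_cost]
    have hn0 : (Fintype.card Γ : ℝ≥0∞) ≠ 0 := by
      have : 0 < Fintype.card Γ := Fintype.card_pos
      exact_mod_cast this.ne'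
    have hntop : (Fintype.card Γ : ℝ≥0∞) ≠ ⊤ := ENNReal.natCast_ne_top _
    have h1 : μ (fundDom Γ X) ≤ (Fintype.card Γ : ℝ≥0∞)⁻¹ := by
      rw [ENNReal.le_inv_iff_mul_le, mul_comm]
      exact card_mul_measure_fundDom_le hmeas hinv hfree
    have h5 : 1 - (Fintype.card Γ : ℝ≥0∞)⁻¹
        = ((Fintype.card Γ : ℝ≥0∞) - 1) * (Fintype.card Γ : ℝ≥0∞)⁻¹ := by
      rw [ENNReal.sub_mul (fun _ _ => ENNReal.inv_ne_top.mpr hn0),
        ENNReal.mul_inv_cancel hn0 hntop, one_mul]
    rw [h5]
    have h6 : ((Fintype.card Γ - 1 : ℕ) : ℝ≥0∞) = (Fintype.card Γ : ℝ≥0∞) - 1 := by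
      rw [ENNReal.natCast_sub, Nat.cast_one]
    rw [h6]
    gcongr
  · exact le_iInf₂ (fun Φ hΦ => Φ.cost_lower hmeas hinv hfree hΦ)

end Vale.Agent.Lib.P189
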